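import Mathlib

/-!
# P048: the cycle-complete Ramsey identity on disjoint unions of cliques

A copy of the cycle `C_m` in `G` is an injective map `f : ZMod m → V` with `f i` adjacent to
`f (i + 1)` for all `i`.
-/

open Finset

namespace Vale.Agent.Results.P048.ClusterGraphs

theorem result (m n : ℕ) (hm : 3 ≤ m) (V : Type) [Fintype V] [DecidableEq V]
    (G : SimpleGraph V)
    (hcl : ∀ a b c, G.Adj a b → G.Adj b c → a ≠ c → G.Adj a c)
    (hN : (m - 1) * (n - 1) + 1 ≤ Fintype.card V)
    (hind : ∀ S : Finset V, S.card = n → ∃ a ∈ S, ∃ b ∈ S, G.Adj a b) :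
    ∃ f : ZMod m → V, Function.Injective f ∧ ∀ i, G.Adj (f i) (f (i + 1)) := by
  classical
  obtain ⟨I, hI, hmax⟩ := Finset.exists_max_image
    (univ.filter (fun S : Finset V => ∀ a ∈ S, ∀ b ∈ S, ¬ G.Adj a b)) Finset.card
    ⟨∅, by simp⟩
  have hIind : ∀ a ∈ I, ∀ b ∈ I, ¬ G.Adj a b := (Finset.mem_filter.1 hI).2
  have hIcard : I.card + 1 ≤ n := by
    by_contra hcon
    obtain ⟨S, hSI, hS⟩ := Finset.exists_subset_card_eq (s := I) (n := n) (by omega)
    obtain ⟨a, ha, b, hb, hab⟩ := hind S hS
    exact hIind a (hSI ha) b (hSI hb) hab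
  have hdom : ∀ v, ∃ u ∈ I, u = v ∨ G.Adj u v := by
    intro v
    by_contra hcon
    push Not at hcon
    have hv : v ∉ I := fun h => (hcon v h).1 rfl
    have hins : insert v I ∈ univ.filter (fun S : Finset V => ∀ a ∈ S, ∀ b ∈ S, ¬ G.Adj a b) := by
      refine Finset.mem_filter.2 ⟨Finset.mem_univ _, ?_⟩
      intro a ha b hb
      rcases Finset.mem_insert.1 ha with rfl | ha' <;> rcases Finset.mem_insert.1 hb with rfl | hb'
      · exact G.loopless.irrefl _
      · exact fun h => (hcon b hb').2 h.symm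
      · exact fun h => (hcon a ha').2 h
      · exact hIind a ha' b hb'
    have := hmax _ hins
    rw [Finset.card_insert_of_notMem hv] at this
    omega
  choose g hgI hg using hdom
  have hlt : I.card * (m - 1) < (univ : Finset V).card := by
    rw [Finset.card_univ]
    have : I.card * (m - 1) ≤ (n - 1) * (m - 1) := Nat.mul_le_mul_right _ (by omega)
    rw [Nat.mul_comm (n - 1)] at this
    omega
  obtain ⟨u, _, hu⟩ := Finset.exists_lt_card_fiber_of_mul_lt_card_of_maps_to
    (s := univ) (t := I) (f := g) (fun a _ => hgI a) hlt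
  obtain ⟨S, hSF, hS⟩ := Finset.exists_subset_card_eq
    (s := univ.filter (fun a => g a = u)) (n := m) (by omega)
  have hclique : ∀ a ∈ S, ∀ b ∈ S, a ≠ b → G.Adj a b := by
    intro a ha b hb hab
    have ha' : g a = u := (Finset.mem_filter.1 (hSF ha)).2
    have hb' : g b = u := (Finset.mem_filter.1 (hSF hb)).2
    have h1 := hg a
    have h2 := hg b
    rw [ha'] at h1
    rw [hb'] at h2
    rcases h1 with h1 | h1 <;> rcases h2 with h2 | h2
    · exact absurd (h1.symm.trans h2) hab
    · rw [← h1]; exact h2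
    · rw [← h2]; exact h1.symm
    · exact hcl a u b h1.symm h2 hab
  haveI : NeZero m := ⟨by omega⟩
  haveI : Fact (1 < m) := ⟨by omega⟩
  have e : ZMod m ≃ S := Fintype.equivOfCardEq (by rw [ZMod.card, Fintype.card_coe, hS])
  refine ⟨fun i => (e i : V), Subtype.val_injective.comp e.injective, ?_⟩
  intro i
  apply hclique _ (e i).2 _ (e (i + 1)).2
  intro h
  have h3 : i = i + 1 := e.injective (Subtype.val_injective h)
  have h4 : (1 : ZMod m) = 0 := by
    have := h3.symm
    rwa [add_eq_left] at this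
  exact one_ne_zero h4

end Vale.Agent.Results.P048.ClusterGraphs
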