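import Mathlib

namespace Vale.Agent.Results.P048.CographHosts

open Finset

/-- `Cog G S`: the subgraph of `G` induced on `S` is a cograph, i.e. it is built from single
vertices by disjoint unions (no edges between the two sides) and joins (all edges between). -/
inductive Cog {V : Type} [DecidableEq V] (G : SimpleGraph V) : Finset V → Prop
  | single (v : V) : Cog G {v}
  | join (S T : Finset V) : Cog G S → Cog G T → Disjoint S T →
      (∀ s ∈ S, ∀ t ∈ T, G.Adj s t) → Cog G (S ∪ T)
  | union (S T : Finset V) : Cog G S → Cog G T → Disjoint S T →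
      (∀ s ∈ S, ∀ t ∈ T, ¬ G.Adj s t) → Cog G (S ∪ T)

lemma arith (a b c d s t : ℕ) (hs : s ≤ a * b) (ht : t ≤ c * d) (hbd : d ≤ b) :
    s + t ≤ (a + c) * b := by
  have : c * d ≤ c * b := Nat.mul_le_mul_left c hbd
  nlinarith

lemma clique_indep {V : Type} [DecidableEq V] (G : SimpleGraph V) {S : Finset V} (h : Cog G S) :
    ∃ K I : Finset V, K ⊆ S ∧ I ⊆ S ∧ (∀ a ∈ K, ∀ b ∈ K, a ≠ b → G.Adj a b) ∧
      (∀ a ∈ I, ∀ b ∈ I, ¬ G.Adj a b) ∧ S.card ≤ K.card * I.card := by
  induction h with
  | single v =>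
    refine ⟨{v}, {v}, subset_rfl, subset_rfl, ?_, ?_, by simp⟩
    · intro a ha b hb hab
      rw [Finset.mem_singleton] at ha hb
      exact absurd (ha.trans hb.symm) hab
    · intro a ha b hb
      rw [Finset.mem_singleton] at ha hb
      subst ha; subst hb
      exact G.irrefl
  | join S T _ _ hd hj ihS ihT =>
    obtain ⟨K1, I1, hK1, hI1, hc1, hi1, hn1⟩ := ihS
    obtain ⟨K2, I2, hK2, hI2, hc2, hi2, hn2⟩ := ihT
    have hKd : Disjoint K1 K2 := Finset.disjoint_of_subset_left hK1
      (Finset.disjoint_of_subset_right hK2 hd)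
    have hcl : ∀ a ∈ K1 ∪ K2, ∀ b ∈ K1 ∪ K2, a ≠ b → G.Adj a b := by
      intro a ha b hb hab
      rcases Finset.mem_union.mp ha with ha | ha <;> rcases Finset.mem_union.mp hb with hb | hb
      · exact hc1 a ha b hb hab
      · exact hj a (hK1 ha) b (hK2 hb)
      · exact (hj b (hK1 hb) a (hK2 ha)).symm
      · exact hc2 a ha b hb hab
    rw [Finset.card_union_of_disjoint hd]
    rcases le_total I2.card I1.card with hle | hle
    · refine ⟨K1 ∪ K2, I1, Finset.union_subset_union hK1 hK2,
        hI1.trans Finset.subset_union_left, hcl, hi1, ?_⟩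
      rw [Finset.card_union_of_disjoint hKd]
      exact arith _ _ _ _ _ _ hn1 hn2 hle
    · refine ⟨K1 ∪ K2, I2, Finset.union_subset_union hK1 hK2,
        hI2.trans Finset.subset_union_right, hcl, hi2, ?_⟩
      rw [Finset.card_union_of_disjoint hKd, add_comm S.card, add_comm K1.card]
      exact arith _ _ _ _ _ _ hn2 hn1 hle
  | union S T _ _ hd hj ihS ihT =>
    obtain ⟨K1, I1, hK1, hI1, hc1, hi1, hn1⟩ := ihS
    obtain ⟨K2, I2, hK2, hI2, hc2, hi2, hn2⟩ := ihT
    have hId : Disjoint I1 I2 := Finset.disjoint_of_subset_left hI1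
      (Finset.disjoint_of_subset_right hI2 hd)
    have hin : ∀ a ∈ I1 ∪ I2, ∀ b ∈ I1 ∪ I2, ¬ G.Adj a b := by
      intro a ha b hb
      rcases Finset.mem_union.mp ha with ha | ha <;> rcases Finset.mem_union.mp hb with hb | hb
      · exact hi1 a ha b hb
      · exact hj a (hI1 ha) b (hI2 hb)
      · exact fun h => hj b (hI1 hb) a (hI2 ha) h.symm
      · exact hi2 a ha b hb
    rw [Finset.card_union_of_disjoint hd]
    rcases le_total K2.card K1.card with hle | hle
    · refine ⟨K1, I1 ∪ I2, hK1.trans Finset.subset_union_left,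
        Finset.union_subset_union hI1 hI2, hc1, hin, ?_⟩
      rw [Finset.card_union_of_disjoint hId, mul_comm]
      exact arith _ _ _ _ _ _ (by rw [mul_comm]; exact hn1) (by rw [mul_comm]; exact hn2) hle
    · refine ⟨K2, I1 ∪ I2, hK2.trans Finset.subset_union_right,
        Finset.union_subset_union hI1 hI2, hc2, hin, ?_⟩
      rw [Finset.card_union_of_disjoint hId, mul_comm, add_comm S.card, add_comm I1.card]
      exact arith _ _ _ _ _ _ (by rw [mul_comm]; exact hn2) (by rw [mul_comm]; exact hn1) hle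

/-- A cograph on `(m-1)(n-1)+1` vertices has a cycle of length exactly `m` or an independent
set of `n` vertices. -/
theorem result (m n : ℕ) (hm : 3 ≤ m) (hn : 2 ≤ n) (V : Type) [Fintype V] [DecidableEq V]
    (G : SimpleGraph V) (hcog : Cog G Finset.univ)
    (hN : (m - 1) * (n - 1) + 1 ≤ Fintype.card V) :
    (∃ f : Fin m → V, Function.Injective f ∧
      ∀ i j : Fin m, j.val = (i.val + 1) % m → G.Adj (f i) (f j)) ∨
    (∃ I : Finset V, I.card = n ∧ ∀ a ∈ I, ∀ b ∈ I, ¬ G.Adj a b) := by
  obtain ⟨K, I, _, _, hc, hi, hcard⟩ := clique_indep G hcog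
  rw [Finset.card_univ] at hcard
  by_cases hI : n ≤ I.card
  · right
    obtain ⟨J, hJ, hJn⟩ := Finset.exists_subset_card_eq hI
    exact ⟨J, hJn, fun a ha b hb => hi a (hJ ha) b (hJ hb)⟩
  · left
    have hI' : I.card ≤ n - 1 := by omega
    have hK : m ≤ K.card := by
      by_contra hlt
      have h1 : K.card ≤ m - 1 := by omega
      have : K.card * I.card ≤ (m - 1) * (n - 1) := Nat.mul_le_mul h1 hI'
      omega
    obtain ⟨g⟩ : Nonempty (Fin m ↪ K) :=
      Function.Embedding.nonempty_of_card_le (by rw [Fintype.card_fin, Fintype.card_coe]; exact hK)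
    refine ⟨fun i => (g i : V), fun x y h => g.injective (Subtype.ext h), ?_⟩
    intro i j hij
    apply hc _ (g i).2 _ (g j).2
    intro h
    have hij' : i = j := g.injective (Subtype.ext h)
    subst hij'
    have hi' := i.isLt
    rcases Nat.lt_or_ge (i.val + 1) m with h1 | h1
    · rw [Nat.mod_eq_of_lt h1] at hij
      omega
    · have : i.val + 1 = m := by omega
      rw [this, Nat.mod_self] at hij
      omega

end Vale.Agent.Results.P048.CographHosts
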